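import Mathlib

/-!
P317, helper lemma (counting): if every base of `M₁` is within `k` exchanges of a common base of
`M₁` and `M₂`, then the number of bases of `M₁` is at most
`(∑ i ≤ k, C(r,i) C(n-r,i))` times the number of common bases.
-/

namespace Vale.Agent.Lib.P317

open Set

variable {α : Type*}

lemma card_bases_le [Finite α] (M₁ M₂ : Matroid α) (r k : ℕ) (hE : M₁.E = M₂.E)
    (hr : ∀ B, M₂.IsBase B → B.ncard = r)
    (hnear : ∀ X, M₁.IsBase X → ∃ B, M₁.IsBase B ∧ M₂.IsBase B ∧ (B \ X).ncard ≤ k) :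
    {B | M₁.IsBase B}.ncard ≤
      (∑ i ∈ Finset.range (k + 1), r.choose i * (M₂.E.ncard - r).choose i) *
        {B | M₁.IsBase B ∧ M₂.IsBase B}.ncard := by
  classical
  have := Fintype.ofFinite α
  choose! g hg using hnear
  set CB : Set (Set α) := {B | M₁.IsBase B ∧ M₂.IsBase B} with hCB
  let CBf : Finset (Set α) := CB.toFinset
  let T : Finset (Σ _ : Set α, Finset α × Finset α) :=
    CBf.sigma (fun B => (Finset.range (k + 1)).biUnion
      (fun i => (B.toFinset.powersetCard i) ×ˢ ((M₂.E \ B).toFinset.powersetCard i)))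
  have hTcard : T.card ≤
      (∑ i ∈ Finset.range (k + 1), r.choose i * (M₂.E.ncard - r).choose i) * CB.ncard := by
    rw [Finset.card_sigma]
    have hconst : ∀ B ∈ CBf, ((Finset.range (k + 1)).biUnion
        (fun i => (B.toFinset.powersetCard i) ×ˢ ((M₂.E \ B).toFinset.powersetCard i))).card ≤
        ∑ i ∈ Finset.range (k + 1), r.choose i * (M₂.E.ncard - r).choose i := by
      intro B hB
      have hB' : B ∈ CB := by simpa [CBf] using hB
      refine Finset.card_biUnion_le.trans (le_of_eq (Finset.sum_congr rfl ?_))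
      intro i _
      rw [Finset.card_product, Finset.card_powersetCard, Finset.card_powersetCard,
        ← Set.ncard_eq_toFinset_card', ← Set.ncard_eq_toFinset_card', hr B hB'.2,
        Set.ncard_sdiff hB'.2.subset_ground (Set.toFinite B), hr B hB'.2]
    calc ∑ B ∈ CBf, ((Finset.range (k + 1)).biUnion
          (fun i => (B.toFinset.powersetCard i) ×ˢ ((M₂.E \ B).toFinset.powersetCard i))).card
        ≤ ∑ _B ∈ CBf, ∑ i ∈ Finset.range (k + 1), r.choose i * (M₂.E.ncard - r).choose i :=
          Finset.sum_le_sum hconst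
      _ = (∑ i ∈ Finset.range (k + 1), r.choose i * (M₂.E.ncard - r).choose i) * CB.ncard := by
          rw [Finset.sum_const, smul_eq_mul, Set.ncard_eq_toFinset_card' CB, mul_comm]
  refine le_trans ?_ hTcard
  rw [Set.ncard_eq_toFinset_card' {B | M₁.IsBase B}]
  apply Finset.card_le_card_of_injOn
    (fun X => (⟨g X, ((g X \ X).toFinset, (X \ g X).toFinset)⟩ : Σ _ : Set α, Finset α × Finset α))
  · intro X hX
    have hX' : M₁.IsBase X := by simpa using hX
    obtain ⟨h1, h2, h3⟩ := hg X hX'
    have hcardeq : (X \ g X).ncard = (g X \ X).ncard := by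
      have e1 := Set.ncard_inter_add_ncard_sdiff_eq_ncard X (g X) (Set.toFinite X)
      have e2 := Set.ncard_inter_add_ncard_sdiff_eq_ncard (g X) X (Set.toFinite (g X))
      have e3 := hX'.ncard_eq_ncard_of_isBase h1
      rw [Set.inter_comm] at e2
      omega
    simp only [T, CBf, Finset.coe_sigma, Set.mem_sigma_iff, Set.coe_toFinset, Finset.coe_biUnion,
      Finset.coe_range, Set.mem_iUnion, Finset.coe_product, Set.mem_prod, Finset.mem_coe,
      Finset.mem_powersetCard, Set.toFinset_subset_toFinset, Set.toFinset_card, exists_prop]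
    refine ⟨⟨h1, h2⟩, (g X \ X).ncard, Set.mem_Iio.mpr (by omega), ⟨sdiff_subset, ?_⟩, ⟨?_, ?_⟩⟩
    · rw [Set.ncard_eq_toFinset_card' (g X \ X), Set.toFinset_card]
    · intro z hz
      exact ⟨hE ▸ hX'.subset_ground hz.1, hz.2⟩
    · rw [← hcardeq, Set.ncard_eq_toFinset_card' (X \ g X), Set.toFinset_card]
  · intro X hX Y hY hXY
    simp only [Sigma.mk.injEq, heq_eq_eq, Prod.mk.injEq, Set.toFinset_inj] at hXY
    obtain ⟨hgeq, hd1, hd2⟩ := hXY
    rw [← hgeq] at hd1 hd2
    ext z
    by_cases hz : z ∈ g X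
    · constructor
      · intro hzX
        by_contra hzY
        have : z ∈ g X \ X := hd1 ▸ (⟨hz, hzY⟩ : z ∈ g X \ Y)
        exact this.2 hzX
      · intro hzY
        by_contra hzX
        have : z ∈ g X \ Y := hd1 ▸ (⟨hz, hzX⟩ : z ∈ g X \ X)
        exact this.2 hzY
    · constructor
      · intro hzX
        have : z ∈ Y \ g X := hd2 ▸ (⟨hzX, hz⟩ : z ∈ X \ g X)
        exact this.1
      · intro hzY
        have : z ∈ X \ g X := hd2 ▸ (⟨hzY, hz⟩ : z ∈ Y \ g X)
        exact this.1

end Vale.Agent.Lib.P317
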