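import Mathlib

/-!
P317, helper lemma (pure combinatorics): if every element of `D` has an `R₁`-neighbour in `Y`
and every element of `Y` has an `R₂`-neighbour in `D`, then a minimal pair `(D', Y')` with the
same property carries two induced perfect matchings (one for `R₁`, one for `R₂`).
-/

namespace Vale.Agent.Lib.P317

open Set

lemma exists_matched_pair {α : Type*} [Finite α] (D Y : Set α) (R₁ R₂ : α → α → Prop)
    (hD : D.Nonempty) (h₁ : ∀ d ∈ D, ∃ y ∈ Y, R₁ d y) (h₂ : ∀ y ∈ Y, ∃ d ∈ D, R₂ d y) :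
    ∃ D' Y' : Set α, D' ⊆ D ∧ Y' ⊆ Y ∧ D'.Nonempty ∧
      (∀ d ∈ D', ∃ y ∈ Y', R₁ d y) ∧
      (∀ d ∈ D', ∀ y₁ ∈ Y', ∀ y₂ ∈ Y', R₁ d y₁ → R₁ d y₂ → y₁ = y₂) ∧
      (∀ y ∈ Y', ∃ d ∈ D', R₁ d y) ∧
      (∀ y ∈ Y', ∀ d₁ ∈ D', ∀ d₂ ∈ D', R₁ d₁ y → R₁ d₂ y → d₁ = d₂) ∧
      (∀ y ∈ Y', ∃ d ∈ D', R₂ d y) ∧
      (∀ y ∈ Y', ∀ d₁ ∈ D', ∀ d₂ ∈ D', R₂ d₁ y → R₂ d₂ y → d₁ = d₂) ∧
      (∀ d ∈ D', ∃ y ∈ Y', R₂ d y) ∧
      (∀ d ∈ D', ∀ y₁ ∈ Y', ∀ y₂ ∈ Y', R₂ d y₁ → R₂ d y₂ → y₁ = y₂) := by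
  classical
  have : Nonempty α := ⟨hD.some⟩
  let S : Set (Set α × Set α) := {p | p.1 ⊆ D ∧ p.2 ⊆ Y ∧ p.1.Nonempty ∧
    (∀ d ∈ p.1, ∃ y ∈ p.2, R₁ d y) ∧ (∀ y ∈ p.2, ∃ d ∈ p.1, R₂ d y)}
  have hS : S.Nonempty := ⟨(D, Y), subset_rfl, subset_rfl, hD, h₁, h₂⟩
  obtain ⟨p, hpS, hpmin⟩ := (Set.toFinite S).exists_minimal hS
  obtain ⟨D', Y'⟩ := p
  obtain ⟨hD'D, hY'Y, hne, hp1, hp2⟩ := hpS
  simp only at hD'D hY'Y hne hp1 hp2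
  -- every pair of choice functions is a pair of bijections
  have key : ∀ f g : α → α, (∀ d ∈ D', f d ∈ Y' ∧ R₁ d (f d)) →
      (∀ y ∈ Y', g y ∈ D' ∧ R₂ (g y) y) →
      Set.InjOn f D' ∧ Set.SurjOn f D' Y' ∧ Set.InjOn g Y' ∧ Set.SurjOn g Y' D' := by
    intro f g hf hg
    have hfm : ∀ d ∈ D', g (f d) ∈ D' := fun d hd => (hg _ (hf d hd).1).1
    have hq : ((g '' (f '' D'), f '' D') : Set α × Set α) ∈ S := by
      refine ⟨?_, ?_, ?_, ?_, ?_⟩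
      · rintro _ ⟨_, ⟨d, hd, rfl⟩, rfl⟩
        exact hD'D (hfm d hd)
      · rintro _ ⟨d, hd, rfl⟩
        exact hY'Y (hf d hd).1
      · obtain ⟨d, hd⟩ := hne
        exact ⟨g (f d), _, ⟨d, hd, rfl⟩, rfl⟩
      · rintro _ ⟨_, ⟨d, hd, rfl⟩, rfl⟩
        exact ⟨f (g (f d)), ⟨_, hfm d hd, rfl⟩, (hf _ (hfm d hd)).2⟩
      · rintro _ ⟨d, hd, rfl⟩
        exact ⟨g (f d), ⟨_, ⟨d, hd, rfl⟩, rfl⟩, (hg _ (hf d hd).1).2⟩
    have hle : ((g '' (f '' D'), f '' D') : Set α × Set α) ≤ (D', Y') := by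
      constructor
      · rintro _ ⟨_, ⟨d, hd, rfl⟩, rfl⟩
        exact hfm d hd
      · rintro _ ⟨d, hd, rfl⟩
        exact (hf d hd).1
    have hge := hpmin hq hle
    have hge1 : D' ⊆ g '' (f '' D') := hge.1
    have hge2 : Y' ⊆ f '' D' := hge.2
    have hsurj : Set.SurjOn (g ∘ f) D' D' := by
      intro d hd
      obtain ⟨_, ⟨d', hd', rfl⟩, rfl⟩ := hge1 hd
      exact ⟨d', hd', rfl⟩
    have hmaps : Set.MapsTo (g ∘ f) D' D' := fun d hd => hfm d hd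
    have hbij : Set.BijOn (g ∘ f) D' D' :=
      ((Set.toFinite D').surjOn_iff_bijOn_of_mapsTo hmaps).mp hsurj
    have hinjf : Set.InjOn f D' := Set.InjOn.of_comp hbij.injOn
    refine ⟨hinjf, hge2, ?_, ?_⟩
    · intro y₁ hy₁ y₂ hy₂ hgy
      obtain ⟨d₁, hd₁, rfl⟩ := hge2 hy₁
      obtain ⟨d₂, hd₂, rfl⟩ := hge2 hy₂
      have : d₁ = d₂ := hbij.injOn hd₁ hd₂ hgy
      rw [this]
    · intro d hd
      obtain ⟨_, ⟨d', hd', rfl⟩, rfl⟩ := hge1 hd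
      exact ⟨f d', (hf d' hd').1, rfl⟩
  choose! f₀ hf₀ using hp1
  choose! g₀ hg₀ using hp2
  obtain ⟨hinjf, hsurjf, hinjg, hsurjg⟩ := key f₀ g₀ hf₀ hg₀
  -- uniqueness of the `R₁`-neighbour of `d`
  have U1 : ∀ d ∈ D', ∀ y₁ ∈ Y', ∀ y₂ ∈ Y', R₁ d y₁ → R₁ d y₂ → y₁ = y₂ := by
    intro d hd y₁ hy₁ y₂ hy₂ hr₁ hr₂
    by_contra hne'
    have hf1 : ∀ d' ∈ D', Function.update f₀ d y₁ d' ∈ Y' ∧ R₁ d' (Function.update f₀ d y₁ d') := by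
      intro d' hd'
      by_cases h : d' = d
      · subst h
        rw [Function.update_self]
        exact ⟨hy₁, hr₁⟩
      · rw [Function.update_of_ne h]
        exact hf₀ d' hd'
    have hf2 : ∀ d' ∈ D', Function.update f₀ d y₂ d' ∈ Y' ∧ R₁ d' (Function.update f₀ d y₂ d') := by
      intro d' hd'
      by_cases h : d' = d
      · subst h
        rw [Function.update_self]
        exact ⟨hy₂, hr₂⟩
      · rw [Function.update_of_ne h]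
        exact hf₀ d' hd'
    obtain ⟨-, hs1, -, -⟩ := key _ g₀ hf1 hg₀
    obtain ⟨hi2, -, -, -⟩ := key _ g₀ hf2 hg₀
    obtain ⟨d', hd', hd'eq⟩ := hs1 hy₂
    have hd'd : d' ≠ d := by
      rintro rfl
      rw [Function.update_self] at hd'eq
      exact hne' hd'eq
    rw [Function.update_of_ne hd'd] at hd'eq
    have hcoll : Function.update f₀ d y₂ d' = Function.update f₀ d y₂ d := by
      rw [Function.update_of_ne hd'd, Function.update_self, hd'eq]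
    exact hd'd (hi2 hd' hd hcoll)
  -- uniqueness of the `R₂`-neighbour of `y`
  have U2 : ∀ y ∈ Y', ∀ d₁ ∈ D', ∀ d₂ ∈ D', R₂ d₁ y → R₂ d₂ y → d₁ = d₂ := by
    intro y hy d₁ hd₁ d₂ hd₂ hr₁ hr₂
    by_contra hne'
    have hg1 : ∀ y' ∈ Y', Function.update g₀ y d₁ y' ∈ D' ∧ R₂ (Function.update g₀ y d₁ y') y' := by
      intro y' hy'
      by_cases h : y' = y
      · subst h
        rw [Function.update_self]
        exact ⟨hd₁, hr₁⟩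
      · rw [Function.update_of_ne h]
        exact hg₀ y' hy'
    have hg2 : ∀ y' ∈ Y', Function.update g₀ y d₂ y' ∈ D' ∧ R₂ (Function.update g₀ y d₂ y') y' := by
      intro y' hy'
      by_cases h : y' = y
      · subst h
        rw [Function.update_self]
        exact ⟨hd₂, hr₂⟩
      · rw [Function.update_of_ne h]
        exact hg₀ y' hy'
    obtain ⟨-, -, -, hs1⟩ := key f₀ _ hf₀ hg1
    obtain ⟨-, -, hi2, -⟩ := key f₀ _ hf₀ hg2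
    obtain ⟨y', hy', hy'eq⟩ := hs1 hd₂
    have hy'y : y' ≠ y := by
      rintro rfl
      rw [Function.update_self] at hy'eq
      exact hne' hy'eq
    rw [Function.update_of_ne hy'y] at hy'eq
    have hcoll : Function.update g₀ y d₂ y' = Function.update g₀ y d₂ y := by
      rw [Function.update_of_ne hy'y, Function.update_self, hy'eq]
    exact hy'y (hi2 hy' hy hcoll)
  refine ⟨D', Y', hD'D, hY'Y, hne, fun d hd => ⟨f₀ d, hf₀ d hd⟩, U1, ?_, ?_,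
    fun y hy => ⟨g₀ y, hg₀ y hy⟩, U2, ?_, ?_⟩
  · intro y hy
    obtain ⟨d, hd, rfl⟩ := hsurjf hy
    exact ⟨d, hd, (hf₀ d hd).2⟩
  · intro y hy d₁ hd₁ d₂ hd₂ hr₁ hr₂
    have e1 : f₀ d₁ = y := U1 d₁ hd₁ _ (hf₀ d₁ hd₁).1 y hy (hf₀ d₁ hd₁).2 hr₁
    have e2 : f₀ d₂ = y := U1 d₂ hd₂ _ (hf₀ d₂ hd₂).1 y hy (hf₀ d₂ hd₂).2 hr₂
    exact hinjf hd₁ hd₂ (e1.trans e2.symm)
  · intro d hd
    obtain ⟨y, hy, rfl⟩ := hsurjg hd
    exact ⟨y, hy, (hg₀ y hy).2⟩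
  · intro d hd y₁ hy₁ y₂ hy₂ hr₁ hr₂
    have e1 : g₀ y₁ = d := U2 y₁ hy₁ _ (hg₀ y₁ hy₁).1 d hd (hg₀ y₁ hy₁).2 hr₁
    have e2 : g₀ y₂ = d := U2 y₂ hy₂ _ (hg₀ y₂ hy₂).1 d hd (hg₀ y₂ hy₂).2 hr₂
    exact hinjg hy₁ hy₂ (e1.trans e2.symm)

end Vale.Agent.Lib.P317
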