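import Mathlib

/-!
P317, helper lemmas: base exchange through fundamental circuits, and the matching lemma
(if the exchange relation between `D' ⊆ B` and `Y'` outside `B` is a bijection, then
`(B \ D') ∪ Y'` is a base).
-/

namespace Vale.Agent.Lib.P317

open Set

variable {α : Type*}

/-- For a base `B`, an element `y ∉ B` of the ground set and `d ∈ B`:
`B - d + y` is a base iff `d` lies on the fundamental circuit of `y` in `B`. -/
lemma isBase_exchange_iff (M : Matroid α) {B : Set α} (hB : M.IsBase B) {y d : α}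
    (hy : y ∈ M.E) (hyB : y ∉ B) (hd : d ∈ B) :
    M.IsBase (insert y (B \ {d})) ↔ d ∈ M.fundCircuit y B := by
  have hcl : y ∈ M.closure B := by rw [hB.closure_eq]; exact hy
  have hyd : y ≠ d := fun h => hyB (h ▸ hd)
  rw [hB.indep.mem_fundCircuit_iff hcl hyB, ← Set.insert_sdiff_singleton_comm hyd]
  constructor
  · exact fun h => h.indep
  · exact fun h => hB.exchange_isBase_of_indep hyB h

/-- The matching lemma. -/
lemma isBase_of_matching (M : Matroid α) (Y' : Set α) (hfin : Y'.Finite) :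
    ∀ (B D' : Set α), M.IsBase B → D' ⊆ B → Y' ⊆ M.E → (∀ y ∈ Y', y ∉ B) →
    (∀ y ∈ Y', ∃ d ∈ D', M.IsBase (insert y (B \ {d}))) →
    (∀ y ∈ Y', ∀ d₁ ∈ D', ∀ d₂ ∈ D', M.IsBase (insert y (B \ {d₁})) →
      M.IsBase (insert y (B \ {d₂})) → d₁ = d₂) →
    (∀ d ∈ D', ∃ y ∈ Y', M.IsBase (insert y (B \ {d}))) →
    (∀ d ∈ D', ∀ y₁ ∈ Y', ∀ y₂ ∈ Y', M.IsBase (insert y₁ (B \ {d})) →
      M.IsBase (insert y₂ (B \ {d})) → y₁ = y₂) →
    M.IsBase ((B \ D') ∪ Y') := by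
  induction Y', hfin using Set.Finite.induction_on with
  | empty =>
    intro B D' hB _ _ _ _ _ h3 _
    have hD' : D' = ∅ := by
      apply Set.eq_empty_of_forall_notMem
      intro d hd
      obtain ⟨y, hy, _⟩ := h3 d hd
      exact hy
    rw [hD', Set.sdiff_empty, Set.union_empty]
    exact hB
  | @insert y₀ Y'' hy₀ hfin ih =>
    intro B D' hB hD'B hYE hYB h1 h2 h3 h4
    have hy₀mem : y₀ ∈ insert y₀ Y'' := mem_insert _ _
    obtain ⟨d₀, hd₀, hB₁⟩ := h1 y₀ hy₀mem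
    have hy₀B : y₀ ∉ B := hYB y₀ hy₀mem
    have hd₀B : d₀ ∈ B := hD'B hd₀
    set B₁ := insert y₀ (B \ {d₀}) with hB₁def
    have hYB₁ : ∀ y ∈ Y'', y ∉ B₁ := by
      intro y hy hyB₁
      rcases hyB₁ with h | h
      · exact hy₀ (h ▸ hy)
      · exact hYB y (mem_insert_of_mem _ hy) h.1
    have hD''B₁ : D' \ {d₀} ⊆ B₁ := by
      intro d hd
      exact Or.inr ⟨hD'B hd.1, hd.2⟩
    -- the exchange relation for the remaining elements is unchanged
    have key : ∀ y ∈ Y'', ∀ d ∈ D' \ {d₀},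
        (M.IsBase (insert y (B₁ \ {d})) ↔ M.IsBase (insert y (B \ {d}))) := by
      intro y hy d hd
      have hyY : y ∈ insert y₀ Y'' := mem_insert_of_mem _ hy
      have hyE : y ∈ M.E := hYE hyY
      have hyB : y ∉ B := hYB y hyY
      have hyB₁ : y ∉ B₁ := hYB₁ y hy
      have hd₀C : d₀ ∉ M.fundCircuit y B := by
        intro hmem
        have hb : M.IsBase (insert y (B \ {d₀})) :=
          (isBase_exchange_iff M hB hyE hyB hd₀B).mpr hmem
        have : y = y₀ := h4 d₀ hd₀ y hyY y₀ hy₀mem hb hB₁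
        exact hy₀ (this ▸ hy)
      have hsub : M.fundCircuit y B ⊆ insert y B₁ := by
        intro z hz
        rcases M.fundCircuit_subset_insert y B hz with h | h
        · exact Or.inl h
        · refine Or.inr (Or.inr ⟨h, ?_⟩)
          intro hzd
          exact hd₀C (hzd ▸ hz)
      have hC : M.IsCircuit (M.fundCircuit y B) := hB.fundCircuit_isCircuit hyE hyB
      have heq : M.fundCircuit y B = M.fundCircuit y B₁ :=
        hC.eq_fundCircuit_of_subset hB₁.indep hsub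
      rw [isBase_exchange_iff M hB₁ hyE hyB₁ (hD''B₁ hd),
        isBase_exchange_iff M hB hyE hyB (hD'B hd.1), heq]
    have h1' : ∀ y ∈ Y'', ∃ d ∈ D' \ {d₀}, M.IsBase (insert y (B₁ \ {d})) := by
      intro y hy
      have hyY : y ∈ insert y₀ Y'' := mem_insert_of_mem _ hy
      obtain ⟨d, hd, hb⟩ := h1 y hyY
      have hdd₀ : d ≠ d₀ := by
        rintro rfl
        have : y = y₀ := h4 d hd y hyY y₀ hy₀mem hb hB₁
        exact hy₀ (this ▸ hy)
      exact ⟨d, ⟨hd, hdd₀⟩, (key y hy d ⟨hd, hdd₀⟩).mpr hb⟩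
    have h2' : ∀ y ∈ Y'', ∀ d₁ ∈ D' \ {d₀}, ∀ d₂ ∈ D' \ {d₀}, M.IsBase (insert y (B₁ \ {d₁})) →
        M.IsBase (insert y (B₁ \ {d₂})) → d₁ = d₂ := by
      intro y hy d₁ hd₁ d₂ hd₂ hb₁ hb₂
      exact h2 y (mem_insert_of_mem _ hy) d₁ hd₁.1 d₂ hd₂.1 ((key y hy d₁ hd₁).mp hb₁)
        ((key y hy d₂ hd₂).mp hb₂)
    have h3' : ∀ d ∈ D' \ {d₀}, ∃ y ∈ Y'', M.IsBase (insert y (B₁ \ {d})) := by
      intro d hd
      obtain ⟨y, hy, hb⟩ := h3 d hd.1
      have hyy₀ : y ≠ y₀ := by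
        rintro rfl
        exact hd.2 (h2 y hy d hd.1 d₀ hd₀ hb hB₁)
      have hyY'' : y ∈ Y'' := by
        rcases hy with h | h
        · exact absurd h hyy₀
        · exact h
      exact ⟨y, hyY'', (key y hyY'' d hd).mpr hb⟩
    have h4' : ∀ d ∈ D' \ {d₀}, ∀ y₁ ∈ Y'', ∀ y₂ ∈ Y'', M.IsBase (insert y₁ (B₁ \ {d})) →
        M.IsBase (insert y₂ (B₁ \ {d})) → y₁ = y₂ := by
      intro d hd y₁ hy₁ y₂ hy₂ hb₁ hb₂
      exact h4 d hd.1 y₁ (mem_insert_of_mem _ hy₁) y₂ (mem_insert_of_mem _ hy₂)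
        ((key y₁ hy₁ d hd).mp hb₁) ((key y₂ hy₂ d hd).mp hb₂)
    have hres := ih B₁ (D' \ {d₀}) hB₁ hD''B₁ (fun y hy => hYE (mem_insert_of_mem _ hy)) hYB₁
      h1' h2' h3' h4'
    have hset : (B₁ \ (D' \ {d₀})) ∪ Y'' = (B \ D') ∪ insert y₀ Y'' := by
      ext z
      simp only [hB₁def, mem_union, mem_sdiff, mem_insert_iff, mem_singleton_iff, not_and, not_not]
      constructor
      · rintro (⟨h | ⟨hzB, hzd⟩, hz2⟩ | hz)
        · exact Or.inr (Or.inl h)
        · exact Or.inl ⟨hzB, fun hzD => hzd (hz2 hzD)⟩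
        · exact Or.inr (Or.inr hz)
      · rintro (⟨hzB, hzD⟩ | h | hz)
        · exact Or.inl ⟨Or.inr ⟨hzB, fun h => hzD (h ▸ hd₀)⟩, fun hzD' => absurd hzD' hzD⟩
        · refine Or.inl ⟨Or.inl h, fun hzD' => ?_⟩
          exact absurd (hD'B hzD') (h ▸ hy₀B)
        · exact Or.inr hz
    rw [← hset]
    exact hres

end Vale.Agent.Lib.P317
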