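import Vale.Agent.Lib.P317.Exchange
import Vale.Agent.Lib.P317.Cycle

/-!
P317, helper lemmas: given a common base `B` of `M₁`, `M₂` and a base `X` of `M₁` all of whose
subsets of size at most `r - k` are independent in `M₂`, if `|B \ X| > k` there is a common base
closer to `X`; hence some common base is within `k` exchanges of `X`.
-/

namespace Vale.Agent.Lib.P317

open Set

variable {α : Type*}

lemma exists_closer_common_base [Finite α] (M₁ M₂ : Matroid α) (r k : ℕ) (hE : M₁.E = M₂.E)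
    (hr : ∀ B, M₂.IsBase B → B.ncard = r)
    {B X : Set α} (hB₁ : M₁.IsBase B) (hB₂ : M₂.IsBase B) (hX : M₁.IsBase X)
    (hgirth : ∀ I, I ⊆ X → I.ncard + k ≤ r → M₂.Indep I)
    (hk : k < (B \ X).ncard) :
    ∃ B', M₁.IsBase B' ∧ M₂.IsBase B' ∧ (B' \ X).ncard < (B \ X).ncard := by
  have hD : (B \ X).Nonempty := Set.nonempty_of_ncard_ne_zero (by omega)
  have h₁ : ∀ d ∈ B \ X, ∃ y ∈ X \ B, M₁.IsBase (insert y (B \ {d})) :=
    fun d hd => hB₁.exchange hX hd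
  have h₂ : ∀ y ∈ X \ B, ∃ d ∈ B \ X, M₂.IsBase (insert y (B \ {d})) := by
    rintro y ⟨hyX, hyB⟩
    have hyE : y ∈ M₂.E := hE ▸ hX.subset_ground hyX
    have hC : M₂.IsCircuit (M₂.fundCircuit y B) := hB₂.fundCircuit_isCircuit hyE hyB
    by_contra hcon
    push Not at hcon
    have hCsub : M₂.fundCircuit y B ⊆ insert y (B ∩ X) := by
      intro z hz
      rcases M₂.fundCircuit_subset_insert y B hz with h | h
      · exact Or.inl h
      · refine Or.inr ⟨h, ?_⟩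
        by_contra hzX
        exact hcon z ⟨h, hzX⟩ ((isBase_exchange_iff M₂ hB₂ hyE hyB h).mpr hz)
    have hCX : M₂.fundCircuit y B ⊆ X := by
      intro z hz
      rcases hCsub hz with h | h
      · exact h ▸ hyX
      · exact h.2
    have hcard : (M₂.fundCircuit y B).ncard ≤ (B ∩ X).ncard + 1 :=
      (Set.ncard_le_ncard hCsub (Set.toFinite _)).trans (Set.ncard_insert_le y _)
    have hBX : (B ∩ X).ncard + (B \ X).ncard = r := by
      rw [Set.ncard_inter_add_ncard_sdiff_eq_ncard B X (Set.toFinite B)]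
      exact hr B hB₂
    exact hC.dep.not_indep (hgirth _ hCX (by omega))
  obtain ⟨D', Y', hD'D, hY'Y, hD'ne, a1, a2, a3, a4, b1, b2, b3, b4⟩ :=
    exists_matched_pair (B \ X) (X \ B) (fun d y => M₁.IsBase (insert y (B \ {d})))
      (fun d y => M₂.IsBase (insert y (B \ {d}))) hD h₁ h₂
  have hD'B : D' ⊆ B := fun d hd => (hD'D hd).1
  have hY'B : ∀ y ∈ Y', y ∉ B := fun y hy => (hY'Y hy).2
  have hY'E₁ : Y' ⊆ M₁.E := fun y hy => hX.subset_ground (hY'Y hy).1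
  have hY'E₂ : Y' ⊆ M₂.E := hE ▸ hY'E₁
  have hbase₁ : M₁.IsBase ((B \ D') ∪ Y') :=
    isBase_of_matching M₁ Y' (Set.toFinite Y') B D' hB₁ hD'B hY'E₁ hY'B a3 a4 a1 a2
  have hbase₂ : M₂.IsBase ((B \ D') ∪ Y') :=
    isBase_of_matching M₂ Y' (Set.toFinite Y') B D' hB₂ hD'B hY'E₂ hY'B b1 b2 b3 b4
  refine ⟨(B \ D') ∪ Y', hbase₁, hbase₂, ?_⟩
  apply Set.ncard_lt_ncard _ (Set.toFinite _)
  obtain ⟨d, hd⟩ := hD'ne
  constructor
  · rintro z ⟨hz | hz, hzX⟩
    · exact ⟨hz.1, hzX⟩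
    · exact absurd (hY'Y hz).1 hzX
  · intro hsub
    have hdBX : d ∈ B \ X := hD'D hd
    rcases (hsub hdBX).1 with h | h
    · exact h.2 hd
    · exact (hY'B d h) hdBX.1

lemma exists_near_common_base [Finite α] (M₁ M₂ : Matroid α) (r k : ℕ) (hE : M₁.E = M₂.E)
    (hr : ∀ B, M₂.IsBase B → B.ncard = r)
    (hne : ∃ B, M₁.IsBase B ∧ M₂.IsBase B)
    {X : Set α} (hX : M₁.IsBase X)
    (hgirth : ∀ I, I ⊆ X → I.ncard + k ≤ r → M₂.Indep I) :
    ∃ B, M₁.IsBase B ∧ M₂.IsBase B ∧ (B \ X).ncard ≤ k := by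
  have main : ∀ n : ℕ, ∀ B, M₁.IsBase B → M₂.IsBase B → (B \ X).ncard = n →
      ∃ B', M₁.IsBase B' ∧ M₂.IsBase B' ∧ (B' \ X).ncard ≤ k := by
    intro n
    induction n using Nat.strong_induction_on with
    | _ n ih =>
      intro B hB₁ hB₂ hn
      by_cases hk : (B \ X).ncard ≤ k
      · exact ⟨B, hB₁, hB₂, hk⟩
      · obtain ⟨B', hB'₁, hB'₂, hlt⟩ :=
          exists_closer_common_base M₁ M₂ r k hE hr hB₁ hB₂ hX hgirth (not_le.mp hk)
        exact ih _ (hn ▸ hlt) B' hB'₁ hB'₂ rfl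
  obtain ⟨B, hB₁, hB₂⟩ := hne
  exact main _ B hB₁ hB₂ rfl

end Vale.Agent.Lib.P317
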